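import Vale.Agent.P139.R2.H556.Ham2
import Vale.Agent.P139.H836.Long

/-!
# P139, row R8b (b3), (b4): norms under the Bogoliubov transform, and the mass
-/

set_option autoImplicit false

open MvPolynomial Finset
open scoped ComplexConjugate

namespace Vale.Agent.P139.BN

open Vale.Agent.P139.A Vale.Agent.P139.A.WA R7

namespace H280

variable {d k : ℕ} {B : Finset (Lat d)}

lemma cs_sq {α β x y μ : ℝ} (h : α ^ 2 + β ^ 2 ≤ 1 + μ) :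
    (|α| * x + |β| * y) ^ 2 ≤ (1 + μ) * (x ^ 2 + y ^ 2) := by
  have h1 : (|α| * x + |β| * y) ^ 2 ≤ (α ^ 2 + β ^ 2) * (x ^ 2 + y ^ 2) := by
    rw [← sq_abs α, ← sq_abs β]
    nlinarith [sq_nonneg (|α| * y - |β| * x)]
  exact h1.trans (mul_le_mul_of_nonneg_right h (by positivity))

lemma nw_pt_sq {ι : Type} [Fintype ι] (u : ι → ℝ) (z : ι → ℂ) :
    ∑ v : ι × Bool, (u v.1 * ‖pt z v‖) ^ 2 = 2 * ∑ n, (u n * ‖z n‖) ^ 2 := by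
  rw [Fintype.sum_prod_type, mul_sum]
  refine sum_congr rfl fun n _ => ?_
  rw [Fintype.sum_bool]
  simp only [pt, if_true, Bool.false_eq_true, if_false, Complex.norm_conj]
  ring

/-- The transformed family. -/
noncomputable def zz (μ : ℝ) (a : Lat d → ℂ) (n : {n // n ∈ B}) : ℂ :=
  (bA μ n.1 : ℂ) * a n.1 - (bB μ n.1 : ℂ) * conj (a (-n.1))

lemma norm_zz_sq {μ : ℝ} (hμ : 0 ≤ μ) (h0 : (0 : Lat d) ∉ B) (a : Lat d → ℂ) (n : {n // n ∈ B}) :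
    ‖zz μ a n‖ ^ 2 ≤ (1 + μ) * (‖a n.1‖ ^ 2 + ‖a (-n.1)‖ ^ 2) := by
  have hn : n.1 ≠ 0 := fun h => h0 (h ▸ n.2)
  have h1 : ‖zz μ a n‖ ≤ |bA μ n.1| * ‖a n.1‖ + |bB μ n.1| * ‖a (-n.1)‖ := by
    unfold zz
    refine (norm_sub_le _ _).trans (le_of_eq ?_)
    rw [norm_mul, norm_mul, Complex.norm_conj, Complex.norm_real, Complex.norm_real,
      Real.norm_eq_abs, Real.norm_eq_abs]
  exact (pow_le_pow_left₀ (norm_nonneg _) h1 2).trans (cs_sq (bA_sq_le hμ hn))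

lemma norm_inv_sq {μ : ℝ} (hμ : 0 ≤ μ) (hB : ∀ n ∈ B, -n ∈ B) (h0 : (0 : Lat d) ∉ B)
    (z : {n // n ∈ B} → ℂ) (n : {n // n ∈ B}) :
    ‖(bA μ n.1 : ℂ) * z n + (bB μ n.1 : ℂ) * conj (z (ng hB n))‖ ^ 2 ≤
      (1 + μ) * (‖z n‖ ^ 2 + ‖z (ng hB n)‖ ^ 2) := by
  have hn : n.1 ≠ 0 := fun h => h0 (h ▸ n.2)
  have h1 : ‖(bA μ n.1 : ℂ) * z n + (bB μ n.1 : ℂ) * conj (z (ng hB n))‖ ≤
      |bA μ n.1| * ‖z n‖ + |bB μ n.1| * ‖z (ng hB n)‖ := by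
    refine (norm_add_le _ _).trans (le_of_eq ?_)
    rw [norm_mul, norm_mul, Complex.norm_conj, Complex.norm_real, Complex.norm_real,
      Real.norm_eq_abs, Real.norm_eq_abs]
  exact (pow_le_pow_left₀ (norm_nonneg _) h1 2).trans (cs_sq (bA_sq_le hμ hn))

/-- **(b1)** The inverse transform. -/
lemma inv_zz {μ : ℝ} (hμ : 0 ≤ μ) (hB : ∀ n ∈ B, -n ∈ B) (h0 : (0 : Lat d) ∉ B) (a : Lat d → ℂ)
    (n : {n // n ∈ B}) :
    (bA μ n.1 : ℂ) * zz μ a n + (bB μ n.1 : ℂ) * conj (zz μ a (ng hB n)) = a n.1 := by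
  have hn : n.1 ≠ 0 := fun h => h0 (h ▸ n.2)
  have h1 : ((bA μ n.1 : ℂ)) ^ 2 - (bB μ n.1 : ℂ) ^ 2 = 1 := by
    exact_mod_cast bA_sq_sub hμ hn
  have h2 : zz μ a (ng hB n) = (bA μ n.1 : ℂ) * a (-n.1) - (bB μ n.1 : ℂ) * conj (a n.1) := by
    unfold zz ng
    simp [bA_neg, bB_neg]
  rw [h2]
  unfold zz
  rw [map_sub, map_mul, map_mul, Complex.conj_ofReal, Complex.conj_ofReal, Complex.conj_conj]
  linear_combination a n.1 * h1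

lemma sum_nL (u : Lat d → ℝ) (a : Lat d → ℂ) :
    ∑ n ∈ B, (u n * ‖a n‖) ^ 2 = ∑ n : {n // n ∈ B}, (u n.1 * ‖a n.1‖) ^ 2 :=
  (Finset.sum_coe_sort B fun n => (u n * ‖a n‖) ^ 2).symm

lemma two_sqrt_le {μ : ℝ} (hμ : 0 ≤ μ) : Real.sqrt (4 * (1 + μ)) ≤ 4 * (1 + μ) := by
  refine Real.sqrt_le_iff.2 ⟨by positivity, ?_⟩
  nlinarith

/-- **(b3)**, first half. -/
lemma nw_zz_le {μ : ℝ} (hμ : 0 ≤ μ) (hB : ∀ n ∈ B, -n ∈ B) (h0 : (0 : Lat d) ∉ B) (a : Lat d → ℂ)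
    (u : Lat d → ℝ) (hu : ∀ n, u (-n) = u n) :
    nw (fun n : {n // n ∈ B} => u n.1) (pt (zz μ a)) ≤ (4 * (1 + μ)) * nL B u a := by
  have h1 : ∑ v : {n // n ∈ B} × Bool, (u v.1.1 * ‖pt (zz μ a) v‖) ^ 2 ≤
      (4 * (1 + μ)) * ∑ n ∈ B, (u n * ‖a n‖) ^ 2 := by
    rw [nw_pt_sq (fun n : {n // n ∈ B} => u n.1), sum_nL]
    have h2 : ∑ n : {n // n ∈ B}, (u n.1 * ‖a (-n.1)‖) ^ 2 =
        ∑ n : {n // n ∈ B}, (u n.1 * ‖a n.1‖) ^ 2 := by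
      rw [← sum_ng hB]
      refine sum_congr rfl fun n _ => ?_
      simp only [ng, neg_neg, hu]
    have h3 : ∑ n : {n // n ∈ B}, (u n.1 * ‖zz μ a n‖) ^ 2 ≤
        (1 + μ) * (∑ n : {n // n ∈ B}, (u n.1 * ‖a n.1‖) ^ 2 +
          ∑ n : {n // n ∈ B}, (u n.1 * ‖a (-n.1)‖) ^ 2) := by
      rw [← sum_add_distrib, mul_sum]
      refine sum_le_sum fun n _ => ?_
      have h4 := norm_zz_sq hμ h0 a n
      calc (u n.1 * ‖zz μ a n‖) ^ 2 = u n.1 ^ 2 * ‖zz μ a n‖ ^ 2 := by ring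
        _ ≤ u n.1 ^ 2 * ((1 + μ) * (‖a n.1‖ ^ 2 + ‖a (-n.1)‖ ^ 2)) :=
          mul_le_mul_of_nonneg_left h4 (sq_nonneg _)
        _ = _ := by ring
    rw [h2] at h3
    linarith
  unfold nw nL
  calc Real.sqrt (∑ v : {n // n ∈ B} × Bool, (u v.1.1 * ‖pt (zz μ a) v‖) ^ 2)
      ≤ Real.sqrt ((4 * (1 + μ)) * ∑ n ∈ B, (u n * ‖a n‖) ^ 2) := Real.sqrt_le_sqrt h1
    _ = Real.sqrt (4 * (1 + μ)) * Real.sqrt (∑ n ∈ B, (u n * ‖a n‖) ^ 2) :=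
      Real.sqrt_mul (by positivity) _
    _ ≤ _ := mul_le_mul_of_nonneg_right (two_sqrt_le hμ) (Real.sqrt_nonneg _)

/-- **(b3)**, second half. -/
lemma nL_le_nw {μ : ℝ} (hμ : 0 ≤ μ) (hB : ∀ n ∈ B, -n ∈ B) (h0 : (0 : Lat d) ∉ B) (a : Lat d → ℂ)
    (u : Lat d → ℝ) (hu : ∀ n, u (-n) = u n) :
    nL B u a ≤ (4 * (1 + μ)) * nw (fun n : {n // n ∈ B} => u n.1) (pt (zz μ a)) := by
  have h1 : ∑ n ∈ B, (u n * ‖a n‖) ^ 2 ≤
      (4 * (1 + μ)) * ∑ v : {n // n ∈ B} × Bool, (u v.1.1 * ‖pt (zz μ a) v‖) ^ 2 := by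
    rw [nw_pt_sq (fun n : {n // n ∈ B} => u n.1), sum_nL]
    have h2 : ∑ n : {n // n ∈ B}, (u n.1 * ‖zz μ a (ng hB n)‖) ^ 2 =
        ∑ n : {n // n ∈ B}, (u n.1 * ‖zz μ a n‖) ^ 2 := by
      rw [← sum_ng hB (fun n => (u n.1 * ‖zz μ a n‖) ^ 2)]
      refine sum_congr rfl fun n _ => ?_
      simp only [ng, hu]
    have h3 : ∑ n : {n // n ∈ B}, (u n.1 * ‖a n.1‖) ^ 2 ≤
        (1 + μ) * (∑ n : {n // n ∈ B}, (u n.1 * ‖zz μ a n‖) ^ 2 +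
          ∑ n : {n // n ∈ B}, (u n.1 * ‖zz μ a (ng hB n)‖) ^ 2) := by
      rw [← sum_add_distrib, mul_sum]
      refine sum_le_sum fun n _ => ?_
      have h4 := norm_inv_sq hμ hB h0 (zz μ a) n
      rw [inv_zz hμ hB h0 a n] at h4
      calc (u n.1 * ‖a n.1‖) ^ 2 = u n.1 ^ 2 * ‖a n.1‖ ^ 2 := by ring
        _ ≤ u n.1 ^ 2 * ((1 + μ) * (‖zz μ a n‖ ^ 2 + ‖zz μ a (ng hB n)‖ ^ 2)) :=
          mul_le_mul_of_nonneg_left h4 (sq_nonneg _)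
        _ = _ := by ring
    have h5 : 0 ≤ ∑ n : {n // n ∈ B}, (u n.1 * ‖zz μ a n‖) ^ 2 := sum_nonneg fun n _ => sq_nonneg _
    rw [h2] at h3
    nlinarith
  unfold nw nL
  calc Real.sqrt (∑ n ∈ B, (u n * ‖a n‖) ^ 2)
      ≤ Real.sqrt ((4 * (1 + μ)) * ∑ v : {n // n ∈ B} × Bool,
          (u v.1.1 * ‖pt (zz μ a) v‖) ^ 2) := Real.sqrt_le_sqrt h1
    _ = Real.sqrt (4 * (1 + μ)) * Real.sqrt (∑ v : {n // n ∈ B} × Bool,
          (u v.1.1 * ‖pt (zz μ a) v‖) ^ 2) := Real.sqrt_mul (by positivity) _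
    _ ≤ _ := mul_le_mul_of_nonneg_right (two_sqrt_le hμ) (Real.sqrt_nonneg _)

open Vale.Agent.P139.H836 in
/-- **(b4)** `Pz` does nothing to a solution of the Galerkin system. -/
lemma Pz_eq {m : ℕ} {c e T : ℝ} {w : ℝ → WA d k} (h0 : (0 : Lat d) ∉ B)
    (hw : GSol d k m c e B T w) {t : ℝ} (ht : t ∈ Set.Icc 0 T) : Pz (w t) = w t := by
  ext n
  rw [coef_Pz]
  split_ifs with h
  · rw [h, hw.supp t ht 0 h0]
  · rfl

open Vale.Agent.P139.H836 in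
/-- **(b4)** The mass and the zero mode. -/
lemma mass_facts {m : ℕ} {c e T : ℝ} {w : ℝ → WA d k} (hc : 0 < c) (he : 0 ≤ e)
    (h0 : (0 : Lat d) ∉ B) (hw : GSol d k m c e B T w) {t : ℝ} (ht : t ∈ Set.Icc 0 T) :
    0 ≤ mass (w t) ∧ mass (w t) ≤ (c ^ 2 + e) / 4 ∧ 0 < bz c e (w t) ∧
      bz c e (w t) ^ 2 = c ^ 2 + e - mass (w t) ∧
      bz c e (w t) = Real.sqrt (c ^ 2 + e - mass (w t)) := by
  have h1 := mass_nonneg (w t)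
  have h2 : mass (w t) ≤ (c ^ 2 + e) / 4 := by
    refine (mass_le (w t)).trans ?_
    have h3 := pow_le_pow_left₀ (norm_nonneg _) (hw.small t ht) 2
    nlinarith
  have h3 : bz c e (w t) = Real.sqrt (c ^ 2 + e - mass (w t)) := by
    unfold bz
    rw [Pz_eq h0 hw ht]
  have h4 : 0 < c ^ 2 + e - mass (w t) := by nlinarith [pow_pos hc 2]
  refine ⟨h1, h2, ?_, ?_, h3⟩
  · rw [h3]
    exact Real.sqrt_pos.2 h4
  · rw [h3, Real.sq_sqrt h4.le]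

open Vale.Agent.P139.H836 in
/-- The mass of a solution as a sum over the modes of `B`. -/
lemma mass_eq_sum {m : ℕ} {c e T : ℝ} {w : ℝ → WA d k} (hw : GSol d k m c e B T w) {t : ℝ}
    (ht : t ∈ Set.Icc 0 T) : mass (w t) = ∑ n ∈ B, ‖coef (w t) n‖ ^ 2 := by
  unfold mass
  rw [coef_mul]
  have h1 : ∀ n : Lat d, coef (w t) n * coef (conjL (w t)) (0 - n) =
      ((‖coef (w t) n‖ ^ 2 : ℝ) : ℂ) := by
    intro n
    rw [coef_conjL, zero_sub, neg_neg, Complex.mul_conj, Complex.normSq_eq_norm_sq]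
  simp_rw [h1]
  rw [← Complex.ofReal_tsum, Complex.ofReal_re]
  refine tsum_eq_sum fun n hn => ?_
  rw [hw.supp t ht n hn]
  simp

end H280

end Vale.Agent.P139.BN
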